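import Vale.Agent.P018.R2.H49.Row

/-!
P018: admissible ranges of the exponent for the first open pairs `(d, k)`, by small tables.
-/

namespace Vale.Agent.P018.H49.T

open Vale.Agent.P018.K2
open Vale.Agent.P018.K3 (fRow cs38)

/-- the table: `(d, k, t1, t2)` -/
def tab : List (ℕ × ℕ × ℚ × ℚ) :=
  [(6, 3, 9 / 8, 7 / 4),
   (7, 3, 103 / 100, 32 / 15),
   (8, 3, 501 / 500, 249 / 100),
   (9, 4, 123 / 100, 7 / 4),
   (10, 4, 13 / 12, 207 / 100),
   (11, 4, 51 / 50, 59 / 25),
   (12, 4, 2001 / 2000, 53 / 20),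
   (12, 5, 34 / 25, 5 / 3),
   (13, 5, 23 / 20, 2),
   (14, 5, 53 / 50, 9 / 4),
   (15, 5, 101 / 100, 5 / 2),
   (16, 6, 5 / 4, 19 / 10),
   (17, 6, 11 / 10, 15 / 7),
   (18, 6, 26 / 25, 47 / 20),
   (19, 6, 101 / 100, 51 / 20)]

/-- lower rows for `(6, 3)` -/
def lo1 : List (ℕ × ℕ × List (ℕ × ℕ)) :=
  [(5000, 5302, [(0, 10000), (0, 10000), (0, 8695), (0, 7885)]),
   (5302, 5466, [(0, 10000), (0, 9449), (0, 8080), (0, 7350)]),
   (5466, 5562, [(0, 10000), (0, 9073), (0, 7778), (0, 7086)]),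
   (5562, 5616, [(0, 10000), (0, 8865), (0, 7611), (0, 6939)]),
   (5616, 5625, [(0, 10000), (0, 8752), (0, 7520), (0, 6859)])]

theorem lo1_ok : rangeOK 6 3 5000 5625 lo1 = true := by decide +kernel

/-- upper rows for `(6, 3)` -/
def up1 : List (ℕ × ℕ × List (ℕ × ℕ)) :=
  [(8750, 8769, [(5833, 5400), (7229, 3554), (7690, 2819), (7919, 2436)]),
   (8769, 8806, [(5905, 5358), (7276, 3516), (7729, 2785), (7954, 2405)]),
   (8806, 8880, [(6043, 5274), (7368, 3443), (7806, 2720), (8023, 2345)]),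
   (8880, 9032, [(6317, 5104), (7549, 3295), (7957, 2589), (8159, 2225)]),
   (9032, 9373, [(6864, 4736), (7912, 2982), (8259, 2314), (8432, 1974)]),
   (9373, 10000, [(8029, 3794), (8687, 2218), (8905, 1659), (9014, 1384)])]

theorem up1_ok : rangeOK 6 3 8750 10000 up1 = true := by decide +kernel

theorem adm1 : (∀ a : ℝ, 1 ≤ a → a ≤ ((9 / 8 : ℚ) : ℝ) → Adm2 6 3 a) ∧
    (∀ a : ℝ, ((7 / 4 : ℚ) : ℝ) ≤ a → a ≤ ((6 : ℕ) : ℝ) / ((3 : ℕ) : ℝ) → Adm2 6 3 a) := by
  constructor
  · intro a h1 h2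
    push_cast at h2
    exact adm2_of_range 6 3 5000 5625 (by norm_num) (by norm_num) lo1 lo1_ok a (by linarith)
      (by push_cast; linarith) (by push_cast; linarith)
  · intro a h1 h2
    push_cast at h1 h2
    exact adm2_of_range 6 3 8750 10000 (by norm_num) (by norm_num) up1 up1_ok a (by linarith)
      (by push_cast; linarith) (by push_cast; linarith)

/-- lower rows for `(7, 3)` -/
def lo2 : List (ℕ × ℕ × List (ℕ × ℕ)) :=
  [(4285, 4390, [(0, 10000), (0, 10000), (0, 10000), (0, 9489), (0, 8837)]),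
   (4390, 4415, [(0, 10000), (0, 10000), (0, 10000), (0, 9218), (0, 8591)])]

theorem lo2_ok : rangeOK 7 3 4285 4415 lo2 = true := by decide +kernel

/-- upper rows for `(7, 3)` -/
def up2 : List (ℕ × ℕ × List (ℕ × ℕ)) :=
  [(9142, 9176, [(7248, 4452), (8167, 2746), (8472, 2109), (8624, 1788), (8715, 1597)]),
   (9176, 9273, [(7365, 4361), (8245, 2671), (8537, 2045), (8683, 1730), (8770, 1543)]),
   (9273, 9569, [(7695, 4091), (8464, 2453), (8720, 1858), (8848, 1562), (8924, 1387)]),
   (9569, 10000, [(8666, 3136), (9111, 1721), (9259, 1247), (9333, 1021), (9377, 891)])]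

theorem up2_ok : rangeOK 7 3 9142 10000 up2 = true := by decide +kernel

theorem adm2 : (∀ a : ℝ, 1 ≤ a → a ≤ ((103 / 100 : ℚ) : ℝ) → Adm2 7 3 a) ∧
    (∀ a : ℝ, ((32 / 15 : ℚ) : ℝ) ≤ a → a ≤ ((7 : ℕ) : ℝ) / ((3 : ℕ) : ℝ) → Adm2 7 3 a) := by
  constructor
  · intro a h1 h2
    push_cast at h2
    exact adm2_of_range 7 3 4285 4415 (by norm_num) (by norm_num) lo2 lo2_ok a (by linarith)
      (by push_cast; linarith) (by push_cast; linarith)
  · intro a h1 h2
    push_cast at h1 h2
    exact adm2_of_range 7 3 9142 10000 (by norm_num) (by norm_num) up2 up2_ok a (by linarith)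
      (by push_cast; linarith) (by push_cast; linarith)

/-- lower rows for `(8, 3)` -/
def lo3 : List (ℕ × ℕ × List (ℕ × ℕ)) :=
  [(3750, 3758, [(0, 10000), (0, 10000), (0, 10000), (0, 10000), (0, 10000), (0, 9773)])]

theorem lo3_ok : rangeOK 8 3 3750 3758 lo3 = true := by decide +kernel

/-- upper rows for `(8, 3)` -/
def up3 : List (ℕ × ℕ × List (ℕ × ℕ)) :=
  [(9337, 9420, [(7910, 3903), (8607, 2304), (8839, 1731), (8955, 1449), (9024, 1283),
     (9070, 1175)]),
   (9420, 9739, [(8184, 3646), (8790, 2104), (8991, 1563), (9092, 1299), (9152, 1146),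
     (9192, 1045)]),
   (9739, 10000, [(9203, 2434), (9468, 1228), (9557, 853), (9601, 681), (9628, 584),
     (9646, 523)])]

theorem up3_ok : rangeOK 8 3 9337 10000 up3 = true := by decide +kernel

theorem adm3 : (∀ a : ℝ, 1 ≤ a → a ≤ ((501 / 500 : ℚ) : ℝ) → Adm2 8 3 a) ∧
    (∀ a : ℝ, ((249 / 100 : ℚ) : ℝ) ≤ a → a ≤ ((8 : ℕ) : ℝ) / ((3 : ℕ) : ℝ) → Adm2 8 3 a) := by
  constructor
  · intro a h1 h2
    push_cast at h2
    exact adm2_of_range 8 3 3750 3758 (by norm_num) (by norm_num) lo3 lo3_ok a (by linarith)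
      (by push_cast; linarith) (by push_cast; linarith)
  · intro a h1 h2
    push_cast at h1 h2
    exact adm2_of_range 8 3 9337 10000 (by norm_num) (by norm_num) up3 up3_ok a (by linarith)
      (by push_cast; linarith) (by push_cast; linarith)

/-- lower rows for `(9, 4)` -/
def lo4 : List (ℕ × ℕ × List (ℕ × ℕ)) :=
  [(4444, 4799, [(0, 10000), (0, 10000), (0, 10000), (0, 9083), (0, 8469), (0, 8050),
     (0, 7744)]),
   (4799, 5021, [(0, 10000), (0, 10000), (0, 9152), (0, 8283), (0, 7743), (0, 7373),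
     (0, 7103)]),
   (5021, 5155, [(0, 10000), (0, 10000), (0, 8649), (0, 7846), (0, 7345), (0, 7002),
     (0, 6751)]),
   (5155, 5245, [(0, 10000), (0, 9810), (0, 8369), (0, 7602), (0, 7123), (0, 6794), (0, 6553)]),
   (5245, 5312, [(0, 10000), (0, 9587), (0, 8190), (0, 7445), (0, 6980), (0, 6661), (0, 6427)]),
   (5312, 5362, [(0, 10000), (0, 9426), (0, 8061), (0, 7333), (0, 6878), (0, 6565), (0, 6336)]),
   (5362, 5398, [(0, 10000), (0, 9309), (0, 7967), (0, 7251), (0, 6803), (0, 6495), (0, 6270)]),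
   (5398, 5424, [(0, 10000), (0, 9226), (0, 7901), (0, 7193), (0, 6750), (0, 6446), (0, 6223)]),
   (5424, 5443, [(0, 10000), (0, 9167), (0, 7854), (0, 7152), (0, 6712), (0, 6410), (0, 6189)]),
   (5443, 5456, [(0, 10000), (0, 9124), (0, 7820), (0, 7122), (0, 6685), (0, 6385), (0, 6165)]),
   (5456, 5466, [(0, 10000), (0, 9096), (0, 7796), (0, 7101), (0, 6666), (0, 6367), (0, 6148)]),
   (5466, 5467, [(0, 10000), (0, 9073), (0, 7778), (0, 7086), (0, 6652), (0, 6354), (0, 6136)])]

theorem lo4_ok : rangeOK 9 4 4444 5467 lo4 = true := by decide +kernel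

/-- upper rows for `(9, 4)` -/
def up4 : List (ℕ × ℕ × List (ℕ × ℕ)) :=
  [(7777, 7823, [(1551, 7256), (4467, 5285), (5395, 4405), (5851, 3919), (6120, 3613),
     (6298, 3403), (6424, 3250)]),
   (7823, 7897, [(1790, 7179), (4616, 5209), (5518, 4334), (5961, 3852), (6224, 3548),
     (6397, 3341), (6519, 3189)]),
   (7897, 8019, [(2164, 7054), (4851, 5086), (5713, 4219), (6136, 3743), (6387, 3445),
     (6552, 3240), (6669, 3091)]),
   (8019, 8232, [(2757, 6842), (5227, 4881), (6024, 4028), (6416, 3563), (6649, 3272),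
     (6803, 3074), (6911, 2930)]),
   (8232, 8641, [(3729, 6454), (5851, 4512), (6542, 3687), (6884, 3243), (7086, 2967),
     (7220, 2780), (7315, 2645)]),
   (8641, 9597, [(5416, 5637), (6954, 3764), (7460, 3007), (7712, 2609), (7861, 2367),
     (7960, 2204), (8031, 2088)]),
   (9597, 10000, [(8756, 3031), (9171, 1645), (9309, 1185), (9378, 967), (9419, 842),
     (9447, 762), (9466, 706)])]

theorem up4_ok : rangeOK 9 4 7777 10000 up4 = true := by decide +kernel

theorem adm4 : (∀ a : ℝ, 1 ≤ a → a ≤ ((123 / 100 : ℚ) : ℝ) → Adm2 9 4 a) ∧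
    (∀ a : ℝ, ((7 / 4 : ℚ) : ℝ) ≤ a → a ≤ ((9 : ℕ) : ℝ) / ((4 : ℕ) : ℝ) → Adm2 9 4 a) := by
  constructor
  · intro a h1 h2
    push_cast at h2
    exact adm2_of_range 9 4 4444 5467 (by norm_num) (by norm_num) lo4 lo4_ok a (by linarith)
      (by push_cast; linarith) (by push_cast; linarith)
  · intro a h1 h2
    push_cast at h1 h2
    exact adm2_of_range 9 4 7777 10000 (by norm_num) (by norm_num) up4 up4_ok a (by linarith)
      (by push_cast; linarith) (by push_cast; linarith)

/-- lower rows for `(10, 4)` -/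
def lo5 : List (ℕ × ℕ × List (ℕ × ℕ)) :=
  [(4000, 4174, [(0, 10000), (0, 10000), (0, 10000), (0, 10000), (0, 9576), (0, 9079),
     (0, 8718), (0, 8443)]),
   (4174, 4259, [(0, 10000), (0, 10000), (0, 10000), (0, 9793), (0, 9112), (0, 8647),
     (0, 8310), (0, 8053)]),
   (4259, 4305, [(0, 10000), (0, 10000), (0, 10000), (0, 9559), (0, 8900), (0, 8450),
     (0, 8124), (0, 7875)]),
   (4305, 4329, [(0, 10000), (0, 10000), (0, 10000), (0, 9437), (0, 8789), (0, 8347),
     (0, 8026), (0, 7781)]),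
   (4329, 4334, [(0, 10000), (0, 10000), (0, 10000), (0, 9374), (0, 8732), (0, 8294),
     (0, 7976), (0, 7733)])]

theorem lo5_ok : rangeOK 10 4 4000 4334 lo5 = true := by decide +kernel

/-- upper rows for `(10, 4)` -/
def up5 : List (ℕ × ℕ × List (ℕ × ℕ)) :=
  [(8280, 8291, [(3938, 6364), (5987, 4428), (6655, 3609), (6985, 3170), (7181, 2898),
     (7311, 2713), (7403, 2580), (7471, 2479)]),
   (8291, 8315, [(3986, 6343), (6018, 4408), (6681, 3591), (7008, 3153), (7203, 2882),
     (7332, 2698), (7423, 2565), (7490, 2465)]),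
   (8315, 8366, [(4089, 6297), (6084, 4365), (6736, 3552), (7059, 3116), (7250, 2847),
     (7377, 2664), (7466, 2533), (7533, 2433)]),
   (8366, 8479, [(4305, 6198), (6225, 4274), (6854, 3468), (7164, 3038), (7349, 2773),
     (7471, 2593), (7557, 2464), (7622, 2366)]),
   (8479, 8742, [(4772, 5974), (6531, 4068), (7108, 3281), (7394, 2863), (7564, 2607),
     (7676, 2434), (7756, 2310), (7815, 2216)]),
   (8742, 9444, [(5803, 5418), (7209, 3569), (7673, 2832), (7904, 2448), (8041, 2215),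
     (8132, 2059), (8197, 1948), (8245, 1864)]),
   (9444, 10000, [(8262, 3569), (8842, 2045), (9035, 1514), (9131, 1255), (9189, 1105),
     (9227, 1008), (9255, 940), (9275, 889)])]

theorem up5_ok : rangeOK 10 4 8280 10000 up5 = true := by decide +kernel

theorem adm5 : (∀ a : ℝ, 1 ≤ a → a ≤ ((13 / 12 : ℚ) : ℝ) → Adm2 10 4 a) ∧
    (∀ a : ℝ, ((207 / 100 : ℚ) : ℝ) ≤ a → a ≤ ((10 : ℕ) : ℝ) / ((4 : ℕ) : ℝ) → Adm2 10 4 a) := by
  constructor
  · intro a h1 h2
    push_cast at h2
    exact adm2_of_range 10 4 4000 4334 (by norm_num) (by norm_num) lo5 lo5_ok a (by linarith)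
      (by push_cast; linarith) (by push_cast; linarith)
  · intro a h1 h2
    push_cast at h1 h2
    exact adm2_of_range 10 4 8280 10000 (by norm_num) (by norm_num) up5 up5_ok a (by linarith)
      (by push_cast; linarith) (by push_cast; linarith)

/-- lower rows for `(11, 4)` -/
def lo6 : List (ℕ × ℕ × List (ℕ × ℕ)) :=
  [(3636, 3695, [(0, 10000), (0, 10000), (0, 10000), (0, 10000), (0, 10000), (0, 10000),
     (0, 9705), (0, 9387), (0, 9137)]),
   (3695, 3710, [(0, 10000), (0, 10000), (0, 10000), (0, 10000), (0, 10000), (0, 9940),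
     (0, 9531), (0, 9221), (0, 8977)])]

theorem lo6_ok : rangeOK 11 4 3636 3710 lo6 = true := by decide +kernel

/-- upper rows for `(11, 4)` -/
def up6 : List (ℕ × ℕ × List (ℕ × ℕ)) :=
  [(8581, 8609, [(5181, 5764), (6799, 3878), (7331, 3109), (7595, 2704), (7753, 2456),
     (7856, 2290), (7930, 2170), (7985, 2080), (8027, 2010)]),
   (8609, 8683, [(5291, 5705), (6871, 3825), (7392, 3061), (7650, 2660), (7804, 2415),
     (7905, 2250), (7977, 2132), (8031, 2043), (8072, 1974)]),
   (8683, 8887, [(5578, 5547), (7061, 3683), (7549, 2935), (7792, 2543), (7937, 2304),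
     (8032, 2144), (8100, 2030), (8151, 1944), (8190, 1877)]),
   (8887, 9518, [(6342, 5087), (7566, 3281), (7971, 2577), (8172, 2214), (8292, 1995),
     (8372, 1849), (8428, 1745), (8471, 1667), (8503, 1607)]),
   (9518, 10000, [(8503, 3319), (9002, 1856), (9168, 1358), (9251, 1118), (9301, 980),
     (9334, 890), (9358, 828), (9375, 782), (9389, 747)])]

theorem up6_ok : rangeOK 11 4 8581 10000 up6 = true := by decide +kernel

theorem adm6 : (∀ a : ℝ, 1 ≤ a → a ≤ ((51 / 50 : ℚ) : ℝ) → Adm2 11 4 a) ∧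
    (∀ a : ℝ, ((59 / 25 : ℚ) : ℝ) ≤ a → a ≤ ((11 : ℕ) : ℝ) / ((4 : ℕ) : ℝ) → Adm2 11 4 a) := by
  constructor
  · intro a h1 h2
    push_cast at h2
    exact adm2_of_range 11 4 3636 3710 (by norm_num) (by norm_num) lo6 lo6_ok a (by linarith)
      (by push_cast; linarith) (by push_cast; linarith)
  · intro a h1 h2
    push_cast at h1 h2
    exact adm2_of_range 11 4 8581 10000 (by norm_num) (by norm_num) up6 up6_ok a (by linarith)
      (by push_cast; linarith) (by push_cast; linarith)

/-- lower rows for `(12, 4)` -/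
def lo7 : List (ℕ × ℕ × List (ℕ × ℕ)) :=
  [(3333, 3335, [(0, 10000), (0, 10000), (0, 10000), (0, 10000), (0, 10000), (0, 10000),
     (0, 10000), (0, 10000), (0, 10000), (0, 9825)])]

theorem lo7_ok : rangeOK 12 4 3333 3335 lo7 = true := by decide +kernel

/-- upper rows for `(12, 4)` -/
def up7 : List (ℕ × ℕ × List (ℕ × ℕ)) :=
  [(8833, 8998, [(6144, 5213), (7434, 3390), (7861, 2673), (8073, 2302), (8200, 2077),
     (8284, 1928), (8343, 1821), (8387, 1741), (8422, 1679), (8449, 1629)]),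
   (8998, 9576, [(6743, 4820), (7831, 3053), (8192, 2377), (8372, 2031), (8479, 1823),
     (8550, 1686), (8601, 1588), (8639, 1516), (8668, 1459), (8691, 1414)]),
   (9576, 10000, [(8689, 3110), (9126, 1702), (9272, 1232), (9344, 1008), (9388, 879),
     (9417, 796), (9438, 739), (9453, 697), (9465, 665), (9475, 639)])]

theorem up7_ok : rangeOK 12 4 8833 10000 up7 = true := by decide +kernel

theorem adm7 : (∀ a : ℝ, 1 ≤ a → a ≤ ((2001 / 2000 : ℚ) : ℝ) → Adm2 12 4 a) ∧
    (∀ a : ℝ, ((53 / 20 : ℚ) : ℝ) ≤ a → a ≤ ((12 : ℕ) : ℝ) / ((4 : ℕ) : ℝ) → Adm2 12 4 a) := by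
  constructor
  · intro a h1 h2
    push_cast at h2
    exact adm2_of_range 12 4 3333 3335 (by norm_num) (by norm_num) lo7 lo7_ok a (by linarith)
      (by push_cast; linarith) (by push_cast; linarith)
  · intro a h1 h2
    push_cast at h1 h2
    exact adm2_of_range 12 4 8833 10000 (by norm_num) (by norm_num) up7 up7_ok a (by linarith)
      (by push_cast; linarith) (by push_cast; linarith)

/-- lower rows for `(12, 5)` -/
def lo8 : List (ℕ × ℕ × List (ℕ × ℕ)) :=
  [(4166, 4562, [(0, 10000), (0, 10000), (0, 10000), (0, 9816), (0, 9132), (0, 8666),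
     (0, 8328), (0, 8070), (0, 7867), (0, 7703)]),
   (4562, 4831, [(0, 10000), (0, 10000), (0, 9751), (0, 8802), (0, 8214), (0, 7812),
     (0, 7519), (0, 7296), (0, 7119), (0, 6976)]),
   (4831, 5028, [(0, 10000), (0, 10000), (0, 9077), (0, 8217), (0, 7683), (0, 7317),
     (0, 7050), (0, 6846), (0, 6685), (0, 6554)]),
   (5028, 5167, [(0, 10000), (0, 10000), (0, 8634), (0, 7833), (0, 7333), (0, 6990),
     (0, 6740), (0, 6549), (0, 6397), (0, 6274)]),
   (5167, 5275, [(0, 10000), (0, 9780), (0, 8345), (0, 7581), (0, 7103), (0, 6776), (0, 6536),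
     (0, 6353), (0, 6208), (0, 6090)]),
   (5275, 5364, [(0, 10000), (0, 9514), (0, 8132), (0, 7395), (0, 6934), (0, 6618), (0, 6386),
     (0, 6209), (0, 6068), (0, 5954)]),
   (5364, 5436, [(0, 10000), (0, 9304), (0, 7964), (0, 7248), (0, 6800), (0, 6492), (0, 6267),
     (0, 6094), (0, 5958), (0, 5847)]),
   (5436, 5494, [(0, 10000), (0, 9140), (0, 7832), (0, 7133), (0, 6695), (0, 6394), (0, 6174),
     (0, 6005), (0, 5871), (0, 5762)]),
   (5494, 5540, [(0, 10000), (0, 9012), (0, 7729), (0, 7042), (0, 6613), (0, 6317), (0, 6100),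
     (0, 5934), (0, 5803), (164, 5695)]),
   (5540, 5577, [(0, 10000), (0, 8912), (0, 7649), (0, 6972), (0, 6549), (0, 6257), (0, 6043),
     (0, 5880), (168, 5749), (353, 5642)]),
   (5577, 5606, [(0, 10000), (0, 8833), (0, 7585), (0, 6917), (0, 6498), (0, 6210), (0, 5998),
     (91, 5836), (320, 5706), (502, 5600)]),
   (5606, 5629, [(0, 10000), (0, 8773), (0, 7536), (0, 6874), (0, 6459), (0, 6173), (0, 5963),
     (212, 5802), (438, 5673), (617, 5566)]),
   (5629, 5647, [(0, 10000), (0, 8725), (0, 7498), (0, 6840), (0, 6428), (0, 6144),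
     (17, 5936), (308, 5775), (531, 5646), (708, 5540)]),
   (5647, 5661, [(0, 10000), (0, 8688), (0, 7468), (0, 6814), (0, 6404), (0, 6122),
     (94, 5915), (382, 5754), (603, 5625), (778, 5519)]),
   (5661, 5667, [(0, 10000), (0, 8659), (0, 7445), (0, 6794), (0, 6386), (0, 6104),
     (153, 5898), (439, 5737), (658, 5609), (832, 5503)])]

theorem lo8_ok : rangeOK 12 5 4166 5667 lo8 = true := by decide +kernel

/-- upper rows for `(12, 5)` -/
def up8 : List (ℕ × ℕ × List (ℕ × ℕ)) :=
  [(6944, 6968, [(0, 8641), (1306, 6569), (2824, 5632), (3553, 5093), (3981, 4746),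
     (4262, 4503), (4460, 4323), (4608, 4185), (4721, 4076), (4812, 3986)]),
   (6968, 7000, [(0, 8597), (1412, 6534), (2908, 5598), (3628, 5061), (4051, 4714),
     (4328, 4472), (4524, 4293), (4670, 4155), (4782, 4046), (4871, 3957)]),
   (7000, 7043, [(0, 8538), (1551, 6487), (3020, 5553), (3728, 5017), (4143, 4671),
     (4416, 4430), (4608, 4252), (4752, 4115), (4862, 4007), (4950, 3919)]),
   (7043, 7102, [(0, 8460), (1736, 6424), (3169, 5491), (3859, 4958), (4265, 4614),
     (4532, 4374), (4720, 4198), (4860, 4062), (4968, 3954), (5054, 3867)]),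
   (7102, 7184, [(0, 8355), (1984, 6337), (3369, 5407), (4037, 4876), (4431, 4535),
     (4689, 4298), (4872, 4123), (5007, 3988), (5112, 3882), (5195, 3795)]),
   (7184, 7301, [(0, 8212), (2320, 6214), (3640, 5289), (4279, 4763), (4655, 4425),
     (4902, 4191), (5077, 4018), (5207, 3886), (5307, 3781), (5387, 3696)]),
   (7301, 7477, [(0, 8015), (2781, 6037), (4014, 5119), (4613, 4599), (4966, 4267),
     (5198, 4037), (5362, 3868), (5484, 3739), (5578, 3636), (5653, 3553)]),
   (7477, 7757, [(0, 7734), (3437, 5765), (4550, 4859), (5092, 4351), (5412, 4028),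
     (5623, 3805), (5772, 3641), (5883, 3516), (5968, 3417), (6036, 3337)]),
   (7757, 8257, [(1446, 7289), (4401, 5317), (5341, 4435), (5802, 3948), (6075, 3641),
     (6255, 3430), (6382, 3276), (6477, 3159), (6549, 3066), (6607, 2992)]),
   (8257, 9377, [(3838, 6407), (5922, 4468), (6601, 3647), (6937, 3205), (7136, 2931),
     (7268, 2745), (7361, 2611), (7430, 2510), (7483, 2430), (7526, 2366)]),
   (9377, 10000, [(8042, 3781), (8695, 2209), (8913, 1651), (9021, 1377), (9086, 1217),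
     (9129, 1113), (9160, 1039), (9183, 985), (9201, 944), (9215, 911)])]

theorem up8_ok : rangeOK 12 5 6944 10000 up8 = true := by decide +kernel

theorem adm8 : (∀ a : ℝ, 1 ≤ a → a ≤ ((34 / 25 : ℚ) : ℝ) → Adm2 12 5 a) ∧
    (∀ a : ℝ, ((5 / 3 : ℚ) : ℝ) ≤ a → a ≤ ((12 : ℕ) : ℝ) / ((5 : ℕ) : ℝ) → Adm2 12 5 a) := by
  constructor
  · intro a h1 h2
    push_cast at h2
    exact adm2_of_range 12 5 4166 5667 (by norm_num) (by norm_num) lo8 lo8_ok a (by linarith)
      (by push_cast; linarith) (by push_cast; linarith)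
  · intro a h1 h2
    push_cast at h1 h2
    exact adm2_of_range 12 5 6944 10000 (by norm_num) (by norm_num) up8 up8_ok a (by linarith)
      (by push_cast; linarith) (by push_cast; linarith)

/-- lower rows for `(13, 5)` -/
def lo9 : List (ℕ × ℕ × List (ℕ × ℕ)) :=
  [(3846, 4075, [(0, 10000), (0, 10000), (0, 10000), (0, 10000), (0, 10000), (0, 9495),
     (0, 9111), (0, 8820), (0, 8590), (0, 8404), (0, 8251)]),
   (4075, 4209, [(0, 10000), (0, 10000), (0, 10000), (0, 10000), (0, 9370), (0, 8888),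
     (0, 8537), (0, 8271), (0, 8061), (0, 7890), (0, 7750)]),
   (4209, 4296, [(0, 10000), (0, 10000), (0, 10000), (0, 9695), (0, 9023), (0, 8565),
     (0, 8232), (0, 7979), (0, 7779), (0, 7617), (0, 7483)]),
   (4296, 4353, [(0, 10000), (0, 10000), (0, 10000), (0, 9460), (0, 8810), (0, 8367),
     (0, 8045), (0, 7799), (0, 7606), (0, 7449), (0, 7319)]),
   (4353, 4389, [(0, 10000), (0, 10000), (0, 10000), (0, 9312), (0, 8676), (0, 8242),
     (0, 7927), (0, 7686), (0, 7496), (0, 7342), (0, 7215)]),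
   (4389, 4412, [(0, 10000), (0, 10000), (0, 10000), (0, 9220), (0, 8593), (0, 8165),
     (0, 7853), (0, 7616), (0, 7429), (0, 7277), (0, 7151)]),
   (4412, 4424, [(0, 10000), (0, 10000), (0, 10000), (0, 9163), (0, 8541), (0, 8116),
     (0, 7807), (0, 7572), (0, 7386), (0, 7235), (0, 7111)])]

theorem lo9_ok : rangeOK 13 5 3846 4424 lo9 = true := by decide +kernel

/-- upper rows for `(13, 5)` -/
def up9 : List (ℕ × ℕ × List (ℕ × ℕ)) :=
  [(7692, 7754, [(1097, 7395), (4186, 5423), (5164, 4535), (5643, 4042), (5926, 3731),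
     (6113, 3517), (6245, 3361), (6343, 3242), (6419, 3148), (6479, 3072), (6528, 3010)]),
   (7754, 7870, [(1430, 7294), (4391, 5322), (5333, 4440), (5795, 3952), (6068, 3645),
     (6248, 3434), (6376, 3280), (6470, 3163), (6543, 3070), (6602, 2996), (6649, 2934)]),
   (7870, 8098, [(2029, 7100), (4765, 5131), (5642, 4261), (6073, 3783), (6328, 3482),
     (6496, 3277), (6615, 3127), (6703, 3013), (6772, 2924), (6826, 2851), (6870, 2792)]),
   (8098, 8595, [(3126, 6701), (5463, 4746), (6220, 3902), (6593, 3445), (6814, 3159),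
     (6960, 2965), (7064, 2824), (7140, 2718), (7200, 2634), (7247, 2566), (7285, 2511)]),
   (8595, 9982, [(5236, 5735), (6835, 3851), (7362, 3085), (7623, 2682), (7778, 2435),
     (7881, 2270), (7954, 2151), (8008, 2062), (8050, 1992), (8083, 1936), (8110, 1890)]),
   (9982, 10000, [(9946, 637), (9964, 206), (9970, 115), (9973, 80), (9975, 63), (9976, 53),
     (9977, 47), (9977, 42), (9978, 39), (9978, 36), (9979, 34)])]

theorem up9_ok : rangeOK 13 5 7692 10000 up9 = true := by decide +kernel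

theorem adm9 : (∀ a : ℝ, 1 ≤ a → a ≤ ((23 / 20 : ℚ) : ℝ) → Adm2 13 5 a) ∧
    (∀ a : ℝ, ((2 : ℚ) : ℝ) ≤ a → a ≤ ((13 : ℕ) : ℝ) / ((5 : ℕ) : ℝ) → Adm2 13 5 a) := by
  constructor
  · intro a h1 h2
    push_cast at h2
    exact adm2_of_range 13 5 3846 4424 (by norm_num) (by norm_num) lo9 lo9_ok a (by linarith)
      (by push_cast; linarith) (by push_cast; linarith)
  · intro a h1 h2
    push_cast at h1 h2
    exact adm2_of_range 13 5 7692 10000 (by norm_num) (by norm_num) up9 up9_ok a (by linarith)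
      (by push_cast; linarith) (by push_cast; linarith)

/-- lower rows for `(14, 5)` -/
def lo10 : List (ℕ × ℕ × List (ℕ × ℕ)) :=
  [(3571, 3685, [(0, 10000), (0, 10000), (0, 10000), (0, 10000), (0, 10000), (0, 10000),
     (0, 9904), (0, 9577), (0, 9320), (0, 9113), (0, 8941), (0, 8797)]),
   (3685, 3738, [(0, 10000), (0, 10000), (0, 10000), (0, 10000), (0, 10000), (0, 9971),
     (0, 9560), (0, 9249), (0, 9004), (0, 8806), (0, 8642), (0, 8504)]),
   (3738, 3766, [(0, 10000), (0, 10000), (0, 10000), (0, 10000), (0, 10000), (0, 9809),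
     (0, 9408), (0, 9103), (0, 8863), (0, 8670), (0, 8509), (0, 8375)]),
   (3766, 3781, [(0, 10000), (0, 10000), (0, 10000), (0, 10000), (0, 10000), (0, 9726),
     (0, 9329), (0, 9028), (0, 8791), (0, 8599), (0, 8441), (0, 8308)]),
   (3781, 3786, [(0, 10000), (0, 10000), (0, 10000), (0, 10000), (0, 10000), (0, 9682),
     (0, 9288), (0, 8988), (0, 8753), (0, 8562), (0, 8405), (0, 8272)])]

theorem lo10_ok : rangeOK 14 5 3571 3786 lo10 = true := by decide +kernel

/-- upper rows for `(14, 5)` -/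
def up10 : List (ℕ × ℕ × List (ℕ × ℕ)) :=
  [(8035, 8102, [(2833, 6814), (5275, 4854), (6064, 4002), (6453, 3539), (6683, 3249),
     (6835, 3052), (6942, 2908), (7022, 2800), (7084, 2714), (7133, 2645), (7173, 2589),
     (7206, 2541)]),
   (8102, 8255, [(3145, 6694), (5474, 4739), (6230, 3896), (6602, 3439), (6822, 3154),
     (6968, 2960), (7071, 2819), (7148, 2712), (7207, 2629), (7254, 2561), (7292, 2506),
     (7324, 2459)]),
   (8255, 8629, [(3830, 6411), (5916, 4472), (6597, 3650), (6933, 3208), (7132, 2934),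
     (7264, 2748), (7357, 2614), (7426, 2512), (7480, 2433), (7522, 2369), (7557, 2316),
     (7586, 2272)]),
   (8629, 9741, [(5369, 5663), (6923, 3787), (7435, 3027), (7689, 2628), (7840, 2385),
     (7940, 2221), (8011, 2104), (8063, 2016), (8104, 1947), (8137, 1893), (8163, 1848),
     (8185, 1810)]),
   (9741, 10000, [(9209, 2425), (9473, 1221), (9560, 848), (9604, 677), (9631, 581),
     (9648, 520), (9661, 478), (9670, 448), (9678, 425), (9683, 407), (9688, 392),
     (9692, 380)])]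

theorem up10_ok : rangeOK 14 5 8035 10000 up10 = true := by decide +kernel

theorem adm10 : (∀ a : ℝ, 1 ≤ a → a ≤ ((53 / 50 : ℚ) : ℝ) → Adm2 14 5 a) ∧
    (∀ a : ℝ, ((9 / 4 : ℚ) : ℝ) ≤ a → a ≤ ((14 : ℕ) : ℝ) / ((5 : ℕ) : ℝ) → Adm2 14 5 a) := by
  constructor
  · intro a h1 h2
    push_cast at h2
    exact adm2_of_range 14 5 3571 3786 (by norm_num) (by norm_num) lo10 lo10_ok a (by linarith)
      (by push_cast; linarith) (by push_cast; linarith)
  · intro a h1 h2
    push_cast at h1 h2
    exact adm2_of_range 14 5 8035 10000 (by norm_num) (by norm_num) up10 up10_ok a (by linarith)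
      (by push_cast; linarith) (by push_cast; linarith)

/-- lower rows for `(15, 5)` -/
def lo11 : List (ℕ × ℕ × List (ℕ × ℕ)) :=
  [(3333, 3367, [(0, 10000), (0, 10000), (0, 10000), (0, 10000), (0, 10000), (0, 10000),
     (0, 10000), (0, 10000), (0, 10000), (0, 9825), (0, 9635), (0, 9475), (0, 9339)])]

theorem lo11_ok : rangeOK 15 5 3333 3367 lo11 = true := by decide +kernel

/-- upper rows for `(15, 5)` -/
def up11 : List (ℕ × ℕ × List (ℕ × ℕ)) :=
  [(8333, 8514, [(4165, 6262), (6134, 4333), (6778, 3523), (7096, 3089), (7285, 2821),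
     (7410, 2639), (7498, 2508), (7564, 2410), (7615, 2332), (7655, 2270), (7688, 2219),
     (7715, 2176), (7738, 2140)]),
   (8514, 9039, [(4914, 5903), (6624, 4003), (7185, 3222), (7463, 2809), (7629, 2556),
     (7739, 2385), (7816, 2262), (7874, 2170), (7918, 2098), (7954, 2040), (7983, 1992),
     (8006, 1953), (8026, 1919)]),
   (9039, 10000, [(6888, 4718), (7928, 2967), (8273, 2301), (8444, 1962), (8547, 1760),
     (8615, 1625), (8663, 1530), (8700, 1459), (8727, 1404), (8750, 1361), (8768, 1325),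
     (8783, 1295), (8795, 1270)])]

theorem up11_ok : rangeOK 15 5 8333 10000 up11 = true := by decide +kernel

theorem adm11 : (∀ a : ℝ, 1 ≤ a → a ≤ ((101 / 100 : ℚ) : ℝ) → Adm2 15 5 a) ∧
    (∀ a : ℝ, ((5 / 2 : ℚ) : ℝ) ≤ a → a ≤ ((15 : ℕ) : ℝ) / ((5 : ℕ) : ℝ) → Adm2 15 5 a) := by
  constructor
  · intro a h1 h2
    push_cast at h2
    exact adm2_of_range 15 5 3333 3367 (by norm_num) (by norm_num) lo11 lo11_ok a (by linarith)
      (by push_cast; linarith) (by push_cast; linarith)
  · intro a h1 h2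
    push_cast at h1 h2
    exact adm2_of_range 15 5 8333 10000 (by norm_num) (by norm_num) up11 up11_ok a (by linarith)
      (by push_cast; linarith) (by push_cast; linarith)

/-- lower rows for `(16, 6)` -/
def lo12 : List (ℕ × ℕ × List (ℕ × ℕ)) :=
  [(3750, 4030, [(0, 10000), (0, 10000), (0, 10000), (0, 10000), (0, 10000), (0, 9773),
     (0, 9374), (0, 9071), (0, 8832), (0, 8639), (0, 8480), (0, 8346), (0, 8231),
     (0, 8132)]),
   (4030, 4214, [(0, 10000), (0, 10000), (0, 10000), (0, 10000), (0, 9492), (0, 9001),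
     (0, 8645), (0, 8373), (0, 8160), (0, 7987), (0, 7843), (0, 7723), (0, 7620),
     (0, 7531)]),
   (4214, 4344, [(0, 10000), (0, 10000), (0, 10000), (0, 9682), (0, 9011), (0, 8554),
     (0, 8221), (0, 7968), (0, 7769), (0, 7607), (0, 7473), (0, 7360), (0, 7264),
     (0, 7181)]),
   (4344, 4439, [(0, 10000), (0, 10000), (0, 10000), (0, 9335), (0, 8697), (0, 8262),
     (0, 7945), (0, 7704), (0, 7513), (0, 7359), (0, 7231), (0, 7124), (0, 7032),
     (0, 6952)]),
   (4439, 4507, [(0, 10000), (0, 10000), (0, 10000), (0, 9096), (0, 8480), (0, 8060),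
     (0, 7754), (0, 7521), (0, 7337), (0, 7187), (0, 7064), (0, 6960), (0, 6870),
     (0, 6793)]),
   (4507, 4558, [(0, 10000), (0, 10000), (0, 9900), (0, 8931), (0, 8331), (0, 7921),
     (0, 7623), (0, 7395), (0, 7215), (0, 7069), (0, 6948), (0, 6847), (0, 6759),
     (0, 6684)]),
   (4558, 4598, [(0, 10000), (0, 10000), (0, 9761), (0, 8812), (0, 8222), (0, 7820),
     (0, 7527), (0, 7303), (0, 7126), (0, 6983), (0, 6864), (0, 6764), (0, 6678),
     (0, 6604)]),
   (4598, 4630, [(0, 10000), (0, 10000), (0, 9655), (0, 8720), (0, 8139), (0, 7742),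
     (0, 7453), (0, 7232), (0, 7058), (0, 6917), (0, 6799), (0, 6701), (0, 6616),
     (0, 6543)]),
   (4630, 4655, [(0, 10000), (0, 10000), (0, 9572), (0, 8647), (0, 8073), (0, 7681),
     (0, 7395), (0, 7177), (0, 7004), (0, 6865), (0, 6749), (0, 6651), (0, 6567),
     (0, 6495)]),
   (4655, 4675, [(0, 10000), (0, 10000), (0, 9508), (0, 8592), (0, 8023), (0, 7634),
     (0, 7350), (0, 7134), (0, 6963), (0, 6824), (0, 6709), (0, 6612), (0, 6529),
     (0, 6458)]),
   (4675, 4688, [(0, 10000), (0, 10000), (0, 9457), (0, 8548), (0, 7983), (0, 7597),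
     (0, 7315), (0, 7100), (0, 6930), (0, 6792), (0, 6678), (0, 6582), (0, 6500),
     (0, 6428)])]

theorem lo12_ok : rangeOK 16 6 3750 4688 lo12 = true := by decide +kernel

/-- upper rows for `(16, 6)` -/
def up12 : List (ℕ × ℕ × List (ℕ × ℕ)) :=
  [(7125, 7165, [(0, 8314), (2080, 6303), (3446, 5374), (4106, 4845), (4494, 4504),
     (4749, 4268), (4930, 4093), (5064, 3960), (5167, 3853), (5250, 3767), (5317, 3696),
     (5372, 3635), (5419, 3584), (5459, 3539)]),
   (7165, 7229, [(0, 8245), (2243, 6243), (3578, 5316), (4224, 4789), (4604, 4451),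
     (4854, 4216), (5030, 4042), (5161, 3909), (5263, 3804), (5343, 3719), (5409, 3648),
     (5463, 3588), (5509, 3537), (5548, 3492)]),
   (7229, 7333, [(0, 8135), (2500, 6147), (3786, 5224), (4409, 4700), (4776, 4365),
     (5017, 4132), (5188, 3961), (5315, 3829), (5413, 3725), (5491, 3641), (5554, 3571),
     (5607, 3512), (5651, 3461), (5689, 3418)]),
   (7333, 7509, [(0, 7963), (2903, 5988), (4114, 5072), (4702, 4554), (5049, 4224),
     (5277, 3995), (5438, 3827), (5558, 3698), (5651, 3596), (5724, 3514), (5784, 3445),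
     (5834, 3388), (5876, 3338), (5911, 3296)]),
   (7509, 7828, [(54, 7685), (3552, 5715), (4644, 4811), (5176, 4305), (5491, 3984),
     (5698, 3762), (5844, 3600), (5953, 3475), (6037, 3377), (6104, 3298), (6158, 3232),
     (6203, 3177), (6241, 3130), (6274, 3089)]),
   (7828, 8493, [(1816, 7171), (4632, 5201), (5532, 4326), (5973, 3844), (6235, 3541),
     (6407, 3334), (6529, 3183), (6620, 3067), (6690, 2977), (6745, 2904), (6791, 2843),
     (6828, 2793), (6860, 2749), (6887, 2712)]),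
   (8493, 10000, [(4829, 5945), (6568, 4042), (7139, 3257), (7422, 2842), (7590, 2586),
     (7701, 2414), (7780, 2291), (7839, 2198), (7884, 2125), (7920, 2067), (7949, 2019),
     (7973, 1979), (7994, 1945), (8011, 1916)])]

theorem up12_ok : rangeOK 16 6 7125 10000 up12 = true := by decide +kernel

theorem adm12 : (∀ a : ℝ, 1 ≤ a → a ≤ ((5 / 4 : ℚ) : ℝ) → Adm2 16 6 a) ∧
    (∀ a : ℝ, ((19 / 10 : ℚ) : ℝ) ≤ a → a ≤ ((16 : ℕ) : ℝ) / ((6 : ℕ) : ℝ) → Adm2 16 6 a) := by
  constructor
  · intro a h1 h2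
    push_cast at h2
    exact adm2_of_range 16 6 3750 4688 (by norm_num) (by norm_num) lo12 lo12_ok a (by linarith)
      (by push_cast; linarith) (by push_cast; linarith)
  · intro a h1 h2
    push_cast at h1 h2
    exact adm2_of_range 16 6 7125 10000 (by norm_num) (by norm_num) up12 up12_ok a (by linarith)
      (by push_cast; linarith) (by push_cast; linarith)

/-- lower rows for `(17, 6)` -/
def lo13 : List (ℕ × ℕ × List (ℕ × ℕ)) :=
  [(3529, 3694, [(0, 10000), (0, 10000), (0, 10000), (0, 10000), (0, 10000), (0, 10000),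
     (0, 10000), (0, 9704), (0, 9442), (0, 9231), (0, 9057), (0, 8910), (0, 8785),
     (0, 8677), (0, 8582)]),
   (3694, 3788, [(0, 10000), (0, 10000), (0, 10000), (0, 10000), (0, 10000), (0, 9943),
     (0, 9534), (0, 9224), (0, 8980), (0, 8782), (0, 8619), (0, 8482), (0, 8365),
     (0, 8264), (0, 8176)]),
   (3788, 3846, [(0, 10000), (0, 10000), (0, 10000), (0, 10000), (0, 10000), (0, 9662),
     (0, 9268), (0, 8970), (0, 8735), (0, 8545), (0, 8388), (0, 8256), (0, 8143),
     (0, 8045), (0, 7960)]),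
   (3846, 3882, [(0, 10000), (0, 10000), (0, 10000), (0, 10000), (0, 10000), (0, 9495),
     (0, 9111), (0, 8820), (0, 8590), (0, 8404), (0, 8251), (0, 8122), (0, 8011),
     (0, 7916), (0, 7833)]),
   (3882, 3883, [(0, 10000), (0, 10000), (0, 10000), (0, 10000), (0, 9916), (0, 9395),
     (0, 9016), (0, 8729), (0, 8502), (0, 8319), (0, 8168), (0, 8041), (0, 7932),
     (0, 7838), (0, 7756)])]

theorem lo13_ok : rangeOK 17 6 3529 3883 lo13 = true := by decide +kernel

/-- upper rows for `(17, 6)` -/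
def up13 : List (ℕ × ℕ × List (ℕ × ℕ)) :=
  [(7563, 7631, [(372, 7601), (3743, 5629), (4800, 4730), (5317, 4228), (5622, 3910),
     (5822, 3690), (5964, 3529), (6070, 3407), (6152, 3310), (6216, 3232), (6269, 3167),
     (6313, 3112), (6350, 3066), (6381, 3025), (6408, 2990)]),
   (7631, 7764, [(760, 7493), (3979, 5521), (4994, 4627), (5490, 4130), (5783, 3816),
     (5977, 3599), (6113, 3441), (6215, 3320), (6294, 3225), (6356, 3148), (6407, 3084),
     (6449, 3030), (6484, 2985), (6514, 2945), (6541, 2911)]),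
   (7764, 8041, [(1483, 7278), (4424, 5306), (5360, 4425), (5819, 3938), (6091, 3631),
     (6270, 3420), (6397, 3267), (6491, 3150), (6563, 3058), (6621, 2983), (6668, 2922),
     (6707, 2870), (6740, 2826), (6768, 2788), (6792, 2755)]),
   (8041, 8697, [(2861, 6803), (5293, 4843), (6079, 3993), (6466, 3530), (6695, 3241),
     (6847, 3043), (6954, 2900), (7034, 2792), (7095, 2707), (7144, 2638), (7184, 2581),
     (7217, 2534), (7244, 2493), (7268, 2459), (7288, 2428)]),
   (8697, 10000, [(5632, 5517), (7096, 3657), (7579, 2910), (7819, 2520), (7962, 2283),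
     (8056, 2124), (8123, 2010), (8173, 1925), (8212, 1858), (8242, 1805), (8267, 1762),
     (8288, 1725), (8305, 1694), (8320, 1668), (8333, 1645)])]

theorem up13_ok : rangeOK 17 6 7563 10000 up13 = true := by decide +kernel

theorem adm13 : (∀ a : ℝ, 1 ≤ a → a ≤ ((11 / 10 : ℚ) : ℝ) → Adm2 17 6 a) ∧
    (∀ a : ℝ, ((15 / 7 : ℚ) : ℝ) ≤ a → a ≤ ((17 : ℕ) : ℝ) / ((6 : ℕ) : ℝ) → Adm2 17 6 a) := by
  constructor
  · intro a h1 h2
    push_cast at h2
    exact adm2_of_range 17 6 3529 3883 (by norm_num) (by norm_num) lo13 lo13_ok a (by linarith)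
      (by push_cast; linarith) (by push_cast; linarith)
  · intro a h1 h2
    push_cast at h1 h2
    exact adm2_of_range 17 6 7563 10000 (by norm_num) (by norm_num) up13 up13_ok a (by linarith)
      (by push_cast; linarith) (by push_cast; linarith)

/-- lower rows for `(18, 6)` -/
def lo14 : List (ℕ × ℕ × List (ℕ × ℕ)) :=
  [(3333, 3415, [(0, 10000), (0, 10000), (0, 10000), (0, 10000), (0, 10000), (0, 10000),
     (0, 10000), (0, 10000), (0, 10000), (0, 9825), (0, 9635), (0, 9475), (0, 9339),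
     (0, 9222), (0, 9120), (0, 9029)]),
   (3415, 3453, [(0, 10000), (0, 10000), (0, 10000), (0, 10000), (0, 10000), (0, 10000),
     (0, 10000), (0, 10000), (0, 9790), (0, 9568), (0, 9384), (0, 9231), (0, 9099),
     (0, 8986), (0, 8887), (0, 8800)]),
   (3453, 3467, [(0, 10000), (0, 10000), (0, 10000), (0, 10000), (0, 10000), (0, 10000),
     (0, 10000), (0, 9942), (0, 9671), (0, 9453), (0, 9273), (0, 9121), (0, 8992),
     (0, 8881), (0, 8783), (0, 8697)])]

theorem lo14_ok : rangeOK 18 6 3333 3467 lo14 = true := by decide +kernel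

/-- upper rows for `(18, 6)` -/
def up14 : List (ℕ × ℕ × List (ℕ × ℕ)) :=
  [(7833, 7908, [(1841, 7163), (4648, 5193), (5545, 4318), (5985, 3837), (6246, 3534),
     (6418, 3327), (6539, 3176), (6630, 3061), (6700, 2971), (6755, 2897), (6800, 2837),
     (6838, 2786), (6869, 2743), (6896, 2706), (6919, 2674), (6939, 2645)]),
   (7908, 8079, [(2219, 7035), (4885, 5068), (5741, 4202), (6162, 3727), (6411, 3429),
     (6575, 3225), (6692, 3077), (6778, 2964), (6845, 2876), (6898, 2804), (6941, 2745),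
     (6977, 2696), (7007, 2653), (7032, 2617), (7055, 2585), (7074, 2557)]),
   (8079, 8503, [(3038, 6735), (5406, 4778), (6173, 3933), (6551, 3473), (6775, 3187),
     (6923, 2991), (7027, 2850), (7105, 2742), (7165, 2658), (7213, 2590), (7251, 2534),
     (7284, 2487), (7311, 2448), (7334, 2413), (7354, 2383), (7371, 2357)]),
   (8503, 9810, [(4869, 5925), (6594, 4023), (7161, 3241), (7442, 2826), (7609, 2572),
     (7719, 2400), (7797, 2277), (7855, 2184), (7900, 2112), (7936, 2054), (7965, 2006),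
     (7989, 1966), (8009, 1933), (8026, 1904), (8041, 1878), (8054, 1856)]),
   (9810, 10000, [(9422, 2075), (9615, 992), (9679, 671), (9711, 527), (9730, 448),
     (9743, 398), (9752, 364), (9759, 339), (9765, 321), (9769, 306), (9772, 295),
     (9775, 285), (9778, 278), (9780, 271), (9782, 265), (9783, 260)])]

theorem up14_ok : rangeOK 18 6 7833 10000 up14 = true := by decide +kernel

theorem adm14 : (∀ a : ℝ, 1 ≤ a → a ≤ ((26 / 25 : ℚ) : ℝ) → Adm2 18 6 a) ∧
    (∀ a : ℝ, ((47 / 20 : ℚ) : ℝ) ≤ a → a ≤ ((18 : ℕ) : ℝ) / ((6 : ℕ) : ℝ) → Adm2 18 6 a) := by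
  constructor
  · intro a h1 h2
    push_cast at h2
    exact adm2_of_range 18 6 3333 3467 (by norm_num) (by norm_num) lo14 lo14_ok a (by linarith)
      (by push_cast; linarith) (by push_cast; linarith)
  · intro a h1 h2
    push_cast at h1 h2
    exact adm2_of_range 18 6 7833 10000 (by norm_num) (by norm_num) up14 up14_ok a (by linarith)
      (by push_cast; linarith) (by push_cast; linarith)

/-- lower rows for `(19, 6)` -/
def lo15 : List (ℕ × ℕ × List (ℕ × ℕ)) :=
  [(3157, 3185, [(0, 10000), (0, 10000), (0, 10000), (0, 10000), (0, 10000), (0, 10000),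
     (0, 10000), (0, 10000), (0, 10000), (0, 10000), (0, 10000), (0, 10000), (0, 9898),
     (0, 9771), (0, 9661), (0, 9563), (0, 9477)]),
   (3185, 3190, [(0, 10000), (0, 10000), (0, 10000), (0, 10000), (0, 10000), (0, 10000),
     (0, 10000), (0, 10000), (0, 10000), (0, 10000), (0, 10000), (0, 9950), (0, 9805),
     (0, 9680), (0, 9570), (0, 9474), (0, 9389)])]

theorem lo15_ok : rangeOK 19 6 3157 3190 lo15 = true := by decide +kernel

/-- upper rows for `(19, 6)` -/
def up15 : List (ℕ × ℕ × List (ℕ × ℕ)) :=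
  [(8052, 8161, [(2913, 6783), (5326, 4825), (6106, 3975), (6491, 3513), (6719, 3225),
     (6869, 3028), (6975, 2886), (7054, 2778), (7115, 2693), (7164, 2624), (7203, 2568),
     (7236, 2520), (7264, 2480), (7287, 2445), (7307, 2415), (7325, 2389), (7341, 2365)]),
   (8161, 8450, [(3413, 6586), (5647, 4637), (6373, 3802), (6731, 3350), (6943, 3069),
     (7084, 2878), (7183, 2740), (7257, 2635), (7313, 2553), (7359, 2487), (7396, 2433),
     (7426, 2387), (7452, 2348), (7474, 2315), (7492, 2286), (7509, 2260), (7523, 2238)]),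
   (8450, 9338, [(4654, 6032), (6453, 4121), (7043, 3329), (7335, 2909), (7509, 2650),
     (7624, 2475), (7705, 2349), (7766, 2255), (7813, 2181), (7850, 2121), (7880, 2073),
     (7905, 2032), (7926, 1997), (7944, 1968), (7959, 1942), (7973, 1919), (7985, 1899)]),
   (9338, 10000, [(7913, 3900), (8609, 2302), (8841, 1729), (8956, 1447), (9026, 1281),
     (9072, 1173), (9104, 1097), (9129, 1041), (9148, 998), (9163, 964), (9175, 936),
     (9186, 913), (9194, 894), (9202, 877), (9208, 863), (9214, 851), (9218, 840)])]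

theorem up15_ok : rangeOK 19 6 8052 10000 up15 = true := by decide +kernel

theorem adm15 : (∀ a : ℝ, 1 ≤ a → a ≤ ((101 / 100 : ℚ) : ℝ) → Adm2 19 6 a) ∧
    (∀ a : ℝ, ((51 / 20 : ℚ) : ℝ) ≤ a → a ≤ ((19 : ℕ) : ℝ) / ((6 : ℕ) : ℝ) → Adm2 19 6 a) := by
  constructor
  · intro a h1 h2
    push_cast at h2
    exact adm2_of_range 19 6 3157 3190 (by norm_num) (by norm_num) lo15 lo15_ok a (by linarith)
      (by push_cast; linarith) (by push_cast; linarith)
  · intro a h1 h2
    push_cast at h1 h2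
    exact adm2_of_range 19 6 8052 10000 (by norm_num) (by norm_num) up15 up15_ok a (by linarith)
      (by push_cast; linarith) (by push_cast; linarith)

theorem adm_table : ∀ e ∈ tab, (∀ a : ℝ, 1 ≤ a → a ≤ (e.2.2.1 : ℝ) → Adm2 e.1 e.2.1 a) ∧
    (∀ a : ℝ, (e.2.2.2 : ℝ) ≤ a → a ≤ (e.1 : ℝ) / (e.2.1 : ℝ) → Adm2 e.1 e.2.1 a) := by
  intro e he
  simp only [tab, List.mem_cons, List.not_mem_nil, or_false] at he
  rcases he with rfl | rfl | rfl | rfl | rfl | rfl | rfl | rfl | rfl | rfl | rfl | rfl | rfl | rfl | rfl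
  · exact adm1
  · exact adm2
  · exact adm3
  · exact adm4
  · exact adm5
  · exact adm6
  · exact adm7
  · exact adm8
  · exact adm9
  · exact adm10
  · exact adm11
  · exact adm12
  · exact adm13
  · exact adm14
  · exact adm15

end Vale.Agent.P018.H49.T
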