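import Vale.Agent.P018.Bdl.B15

/-!
P018: a single row of a rational table, and covers of an interval by rows.
-/

namespace Vale.Agent.P018.H49

open Finset Vale.Agent.P018.K2
open Vale.Agent.P018.K3 (fRow fRow_sound cs38 cs38_ok qrow qp)

/-- A correct row for `(d, k)` gives the admissibility of all `a` with `a k / d` in its
interval. -/
theorem adm2_of_row (d k : ℕ) (hk : 1 ≤ k) (hkd : k ≤ d) (row : ℚ × ℚ × List (ℚ × ℚ))
    (h : rowOK d k row = true) (a : ℝ) (ha0 : 0 < a) (hr1 : (row.1 : ℝ) ≤ a / d * k)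
    (hr2 : a / d * k ≤ (row.2.1 : ℝ)) : Adm2 d k a := by
  have hd1 : 1 ≤ d := hk.trans hkd
  have hd0R : (0 : ℝ) < d := by exact_mod_cast hd1
  have hkR : (0 : ℝ) < k := by exact_mod_cast hk
  obtain ⟨w, hw⟩ : ∃ w : ℝ, w = a / d := ⟨_, rfl⟩
  have hw0 : 0 < w := by rw [hw]; positivity
  obtain ⟨κ, hκ⟩ : ∃ κ : ℝ, κ = w * k := ⟨_, rfl⟩
  have hκ0 : 0 < κ := by rw [hκ]; positivity
  rw [← hw, ← hκ] at hr1 hr2
  have hok := h
  unfold rowOK at hok
  simp only [Bool.and_eq_true, decide_eq_true_eq] at hok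
  obtain ⟨⟨⟨h1, h2⟩, h3⟩, h4⟩ := hok
  obtain ⟨κ0, κ1, l⟩ := row
  simp only at h1 h2 h3 h4 hr1 hr2
  -- the staircase
  obtain ⟨β, hβ⟩ : ∃ β : ℕ → ℚ, β = tb 1 l := ⟨_, rfl⟩
  have hanti : ∀ i, β (i + 1) ≤ β i := by rw [hβ]; exact tb_anti κ0 l 2 1 h3
  have hpos : ∀ i, 0 < β i := by rw [hβ]; exact tb_pos κ0 l 2 1 one_pos h3
  have hA : Antitone β := antitone_nat_of_succ_le hanti
  have hβ0 : β 0 = 1 := by rw [hβ, tb_zero]
  obtain ⟨L, hL⟩ : ∃ L : ℚ, L = (l.map Prod.snd).getLastD 1 := ⟨_, rfl⟩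
  have hlast : ∀ i, l.length ≤ i → β i = L := by
    intro i hi
    rw [hβ, hL, tb_ge l 1 i hi]
  refine ⟨fun r => w * (match r with
    | 0 => 1
    | r + 1 => (β r : ℝ)), ?_, ?_, ?_, ?_, ?_⟩
  · simp only [mul_one]
    exact hw
  · intro r
    cases r with
    | zero =>
      simp only
      rw [hβ0]
      simp
    | succ r =>
      simp only
      exact mul_le_mul_of_nonneg_left (by exact_mod_cast hanti r) hw0.le
  · rcases Nat.exists_eq_succ_of_ne_zero (by omega : d ≠ 0) with ⟨d', rfl⟩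
    rw [Nat.succ_sub_one]
    cases d' with
    | zero => simpa using hw0
    | succ r =>
      have : (0 : ℝ) < β r := by exact_mod_cast hpos r
      simp only
      positivity
  · intro r hr1' hr2' hlt
    obtain ⟨i, rfl⟩ : ∃ i, r = i + 1 := ⟨r - 1, by omega⟩
    rw [Nat.add_sub_cancel] at hlt
    cases i with
    | zero =>
      exfalso
      simp only [hβ0] at hlt
      simp at hlt
    | succ i =>
      simp only at hlt
      have hlt' : β (i + 1) < β i := by
        have := lt_of_mul_lt_mul_left hlt hw0.le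
        exact_mod_cast this
      rw [hβ] at hlt'
      obtain ⟨p, hp1, hp2⟩ := tb_step κ0 l 2 1 h3 i hlt'
      rw [show 2 + i = i + 1 + 1 by ring] at hp1
      have := crit_of_step d k (i + 1 + 1) hd1 hk (by omega) a ha0 (κ0 := κ0)
        (by rw [← hw, ← hκ]; exact hr1) hp1
      simp only
      rw [← hw, hp2] at this
      rw [hβ]
      exact this
  · -- the sum
    obtain ⟨e, he⟩ : ∃ e, d = l.length + 2 + e := ⟨d - (l.length + 2), by omega⟩
    rw [← Finset.mul_sum]
    have hsum : ∑ r ∈ range d, (match r with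
        | 0 => (1 : ℝ)
        | r + 1 => (β r : ℝ)) = 2 + ((l.map Prod.snd).sum : ℚ) + e * (L : ℝ) := by
      rw [he, show l.length + 2 + e = (l.length + 1 + e) + 1 by ring, sum_range_succ']
      simp only
      rw [sum_range_add]
      have hs1 : ∑ i ∈ range (l.length + 1), (β i : ℝ) = 1 + ((l.map Prod.snd).sum : ℚ) := by
        rw [← Rat.cast_sum, hβ, tb_sum l 1]
        push_cast
        ring
      have hs2 : ∑ i ∈ range e, (β (l.length + 1 + i) : ℝ) = e * (L : ℝ) := by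
        rw [sum_congr rfl fun i _ => by rw [hlast (l.length + 1 + i) (by omega)], sum_const,
          card_range, nsmul_eq_mul]
      rw [hs1, hs2]
      ring
    rw [hsum]
    obtain ⟨S, hS⟩ : ∃ S : ℝ, S = 2 + (((l.map Prod.snd).sum : ℚ) : ℝ) := ⟨_, rfl⟩
    have hS1 : 0 < S + e * (L : ℝ) := by
      rw [hS, ← hsum]
      refine sum_pos (fun i _ => ?_) ⟨0, by simp; omega⟩
      cases i with
      | zero => exact one_pos
      | succ i =>
        have : (0 : ℝ) < β i := by exact_mod_cast hpos i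
        simpa only using this
    have h4' : (κ1 : ℝ) * (S + ((d : ℝ) - 2 - l.length) * (L : ℝ)) < k := by
      rw [hS, hL]
      exact_mod_cast h4
    have hdR2 : (d : ℝ) = l.length + 2 + e := by exact_mod_cast he
    have h6 : (d : ℝ) - 2 - l.length = e := by rw [hdR2]; ring
    rw [h6] at h4'
    rw [← hS]
    have e4 : w * (S + e * (L : ℝ)) * k < 1 * k := by
      calc w * (S + e * (L : ℝ)) * k = κ * (S + e * (L : ℝ)) := by rw [hκ]; ring
        _ ≤ κ1 * (S + e * (L : ℝ)) := mul_le_mul_of_nonneg_right hr2 hS1.le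
        _ < k := h4'
        _ = 1 * k := (one_mul _).symm
    exact lt_of_mul_lt_mul_right e4 hkR.le

/-- the rows (in units `1/10000`) cover the interval from `K` to `T`. -/
def coverTo (T : ℕ) : ℕ → List (ℕ × ℕ × List (ℕ × ℕ)) → Bool
  | K, [] => decide (T ≤ K)
  | K, row :: tab => decide (row.1 ≤ K) && coverTo T row.2.1 tab

theorem coverTo_row (T : ℕ) (κ : ℝ) (hκ : κ ≤ (T : ℝ) / 10000)
    (tab : List (ℕ × ℕ × List (ℕ × ℕ))) : ∀ K : ℕ, coverTo T K tab = true →
      (K : ℝ) / 10000 < κ ∨ ((K : ℝ) / 10000 ≤ κ ∧ tab ≠ []) →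
      ∃ row ∈ tab, (row.1 : ℝ) / 10000 ≤ κ ∧ κ ≤ (row.2.1 : ℝ) / 10000 := by
  induction tab with
  | nil =>
    intro K h1 h2
    rw [coverTo, decide_eq_true_eq] at h1
    rcases h2 with h2 | h2
    · have h3 : (T : ℝ) ≤ K := by exact_mod_cast h1
      have h4 : (T : ℝ) / 10000 ≤ (K : ℝ) / 10000 := by gcongr
      linarith
    · exact absurd rfl h2.2
  | cons row tab ih =>
    intro K h1 h2
    rw [coverTo, Bool.and_eq_true, decide_eq_true_eq] at h1
    have h3 : (K : ℝ) / 10000 ≤ κ := by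
      rcases h2 with h2 | h2
      · exact h2.le
      · exact h2.1
    have h4 : (row.1 : ℝ) / 10000 ≤ (K : ℝ) / 10000 := by
      have : (row.1 : ℝ) ≤ K := by exact_mod_cast h1.1
      gcongr
    rcases le_or_gt κ ((row.2.1 : ℝ) / 10000) with h5 | h5
    · exact ⟨row, List.mem_cons_self, h4.trans h3, h5⟩
    · obtain ⟨row', h6, h7⟩ := ih row.2.1 h1.2 (Or.inl h5)
      exact ⟨row', List.mem_cons_of_mem _ h6, h7⟩

/-- correct rows covering the interval from `K` to `T` (units `1/10000`) -/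
noncomputable def rangeOK (d k K T : ℕ) (tab : List (ℕ × ℕ × List (ℕ × ℕ))) : Bool :=
  tab.all (fRow d k cs38) && !tab.isEmpty && coverTo T K tab

theorem adm2_of_range (d k K T : ℕ) (hk : 1 ≤ k) (hkd : k ≤ d)
    (tab : List (ℕ × ℕ × List (ℕ × ℕ))) (h : rangeOK d k K T tab = true) (a : ℝ) (ha : 0 < a)
    (h0 : (K : ℝ) / 10000 ≤ a / d * k) (h1 : a / d * k ≤ (T : ℝ) / 10000) : Adm2 d k a := by
  unfold rangeOK at h
  rw [Bool.and_eq_true, Bool.and_eq_true, List.all_eq_true] at h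
  obtain ⟨⟨h2, h3⟩, h4⟩ := h
  have h5 : tab ≠ [] := by
    rintro rfl
    simp at h3
  obtain ⟨row, hrow, hr1, hr2⟩ := coverTo_row T _ h1 tab K h4 (Or.inr ⟨h0, h5⟩)
  refine adm2_of_row d k hk hkd (qrow row) (fRow_sound d k cs38 cs38_ok row (h2 row hrow)) a ha
    ?_ ?_
  · unfold qrow
    push_cast
    exact hr1
  · unfold qrow
    push_cast
    exact hr2

end Vale.Agent.P018.H49
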